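import Vale.Agent.P310.Diag

/-!
P310: deciding k-WL equivalence at a fixed k needs time n ^ (c * k) (hand-in).
-/


namespace Vale.Agent.Results.P310.WLTimeLower

open Vale.Agent.P310

open scoped BigOperators

theorem lower (k : ℕ) (hk : 500 ≤ k) (A : TM) (T : ℕ → ℕ) (hA : A.DecidesWL k T) :
    ¬ (fun n : ℕ => (T n : ℝ)) =O[Filter.atTop] fun n : ℕ => (n : ℝ) ^ ((1 / 300 : ℝ) * k) := by
  intro hO
  set r := (k - 22) / 30 with hr
  have hr1 : 30 * r ≤ k - 22 := by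
    rw [hr]
    exact Nat.mul_div_le _ _
  have hr2 : k - 22 < 30 * (r + 1) := by
    rw [hr]
    omega
  obtain ⟨m, rfl⟩ : ∃ m, k = m + 1 := ⟨k - 1, by omega⟩
  obtain ⟨q0, hq0⟩ := diag r (by omega) m (by omega) A T hA
  obtain ⟨C, hC⟩ := hO.bound
  rw [Filter.eventually_atTop] at hC
  obtain ⟨N, hN⟩ := hC
  -- exponent gap
  set δ : ℝ := (r : ℝ) - 7 * ((1 / 300 : ℝ) * ((m + 1 : ℕ) : ℝ)) with hδ
  have hδ0 : 0 < δ := by
    have h1 : ((m + 1 : ℕ) : ℝ) < 30 * (r : ℝ) + 52 := by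
      have : m + 1 < 30 * r + 52 := by omega
      exact_mod_cast this
    have h2 : (500 : ℝ) ≤ ((m + 1 : ℕ) : ℝ) := by exact_mod_cast hk
    rw [hδ]
    linarith
  have hlim : Filter.Tendsto (fun x : ℝ => x ^ δ) Filter.atTop Filter.atTop :=
    tendsto_rpow_atTop hδ0
  have hlim2 := hlim.comp (tendsto_natCast_atTop_atTop (R := ℝ))
  obtain ⟨M, hM⟩ := Filter.eventually_atTop.1 (hlim2.eventually_gt_atTop C)
  obtain ⟨q, hq1, hq⟩ := Nat.exists_infinite_primes (q0 + N + M + 2)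
  have hqpos : (0 : ℝ) < q := by exact_mod_cast hq.pos
  have h1 := hq0 q hq (by omega)
  have h2 := hN (q ^ 7) (by
    have : q ≤ q ^ 7 := Nat.le_self_pow (by norm_num) q
    omega)
  have h3 := hM q (by omega)
  simp only [Function.comp] at h3
  have h4 : ((q : ℝ) ^ r) ≤ C * ((q : ℝ) ^ 7) ^ ((1 / 300 : ℝ) * ((m + 1 : ℕ) : ℝ)) := by
    have h5 : ((q : ℝ) ^ r) ≤ (T (q ^ 7) : ℝ) := by exact_mod_cast h1
    have h6 : (0 : ℝ) ≤ ((q : ℝ) ^ 7) ^ ((1 / 300 : ℝ) * ((m + 1 : ℕ) : ℝ)) := by positivity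
    have h7 : ‖((q ^ 7 : ℕ) : ℝ) ^ ((1 / 300 : ℝ) * ((m + 1 : ℕ) : ℝ))‖ =
        ((q : ℝ) ^ 7) ^ ((1 / 300 : ℝ) * ((m + 1 : ℕ) : ℝ)) := by
      rw [Real.norm_of_nonneg (by positivity)]
      push_cast
      rfl
    rw [h7, Real.norm_of_nonneg (by positivity)] at h2
    exact h5.trans h2
  have h8 : ((q : ℝ) ^ 7) ^ ((1 / 300 : ℝ) * ((m + 1 : ℕ) : ℝ)) =
      (q : ℝ) ^ (7 * ((1 / 300 : ℝ) * ((m + 1 : ℕ) : ℝ))) := by
    rw [← Real.rpow_natCast, ← Real.rpow_mul hqpos.le]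
    norm_num
  have h9 : (q : ℝ) ^ r = (q : ℝ) ^ δ * (q : ℝ) ^ (7 * ((1 / 300 : ℝ) * ((m + 1 : ℕ) : ℝ))) := by
    rw [← Real.rpow_add hqpos, hδ, sub_add_cancel, Real.rpow_natCast]
  rw [h8, h9] at h4
  have h10 : (0 : ℝ) < (q : ℝ) ^ (7 * ((1 / 300 : ℝ) * ((m + 1 : ℕ) : ℝ))) := by positivity
  have h11 := le_of_mul_le_mul_right h4 h10
  linarith

/-- Deciding `k`-WL equivalence at a fixed `k` needs time `n ^ (c * k)`, with one constant
`c > 0` for all large `k`; in particular no function `g` with `g k = o(k)` gives upper bounds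
`O(n ^ g k)` for all `k`. -/
theorem result :
    (∃ c : ℝ, 0 < c ∧ ∃ k₀ : ℕ, ∀ k : ℕ, k₀ ≤ k → ∀ (A : TM) (T : ℕ → ℕ), A.DecidesWL k T →
      ¬ (fun n : ℕ => (T n : ℝ)) =O[Filter.atTop] fun n : ℕ => (n : ℝ) ^ (c * (k : ℝ))) ∧
    ¬ ∃ g : ℕ → ℝ, g =o[Filter.atTop] (fun k : ℕ => (k : ℝ)) ∧
      ∀ k : ℕ, 2 ≤ k → ∃ (A : TM) (T : ℕ → ℕ), A.DecidesWL k T ∧
        (fun n : ℕ => (T n : ℝ)) =O[Filter.atTop] fun n : ℕ => (n : ℝ) ^ g k := by
  refine ⟨⟨1 / 300, by norm_num, 500, fun k hk A T hA => lower k hk A T hA⟩, ?_⟩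
  rintro ⟨g, hg, h⟩
  have h1 := hg.bound (c := 1 / 300) (by norm_num)
  obtain ⟨N, hN⟩ := Filter.eventually_atTop.1 h1
  set k := N + 500 with hk
  obtain ⟨A, T, hA, hT⟩ := h k (by omega)
  refine lower k (by omega) A T hA (hT.trans ?_)
  have h2 := hN k (by omega)
  have h3 : g k ≤ (1 / 300 : ℝ) * (k : ℝ) := by
    have h4 := le_trans (le_abs_self _) h2
    rwa [Real.norm_of_nonneg (by positivity : (0 : ℝ) ≤ (k : ℝ))] at h4
  refine Asymptotics.IsBigO.of_bound 1 ?_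
  filter_upwards [Filter.eventually_ge_atTop 1] with n hn
  have hn' : (1 : ℝ) ≤ (n : ℝ) := by exact_mod_cast hn
  rw [Real.norm_of_nonneg (by positivity), Real.norm_of_nonneg (by positivity), one_mul]
  exact Real.rpow_le_rpow_of_exponent_le hn' h3

end Vale.Agent.Results.P310.WLTimeLower
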