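import Vale.Agent.P310.DiagN

/-!
P310: deciding k-WL equivalence at a fixed k needs time n ^ (c * k) for all large n (hand-in).
-/


namespace Vale.Agent.Results.P310.WLTimeLowerAllN

open Vale.Agent.P310

open scoped BigOperators

/-- a prime between half and all of the seventh root -/
theorem exists_prime (n : ℕ) (B : ℕ) (hn : (2 * B + 4) ^ 7 ≤ n) :
    ∃ q : ℕ, q.Prime ∧ B ≤ q ∧ q ^ 7 ≤ n ∧ n < (2 * q) ^ 7 := by
  have hex : ∃ x : ℕ, n < (x + 1) ^ 7 := ⟨n, by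
    calc n < n + 1 := Nat.lt_succ_self n
      _ ≤ (n + 1) ^ 7 := Nat.le_self_pow (by norm_num) _⟩
  classical
  set x := Nat.find hex with hx
  have h1 : n < (x + 1) ^ 7 := Nat.find_spec hex
  have h2 : 2 * B + 4 ≤ x := by
    by_contra h
    have h3 : (x + 1) ^ 7 ≤ (2 * B + 4) ^ 7 := Nat.pow_le_pow_left (by omega) 7
    omega
  have h4 : x ^ 7 ≤ n := by
    by_contra h
    have h5 := Nat.find_min hex (m := x - 1) (by omega)
    apply h5
    rw [Nat.sub_add_cancel (by omega)]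
    omega
  obtain ⟨q, hq, hq1, hq2⟩ := Nat.exists_prime_lt_and_le_two_mul (x / 2) (by omega)
  refine ⟨q, hq, by omega, ?_, ?_⟩
  · exact (Nat.pow_le_pow_left (by omega) 7).trans h4
  · exact h1.trans_le (Nat.pow_le_pow_left (by omega) 7)

theorem lower (k : ℕ) (hk : 600 ≤ k) (A : TM) (T : ℕ → ℕ) (hA : A.DecidesWL k T) :
    ∃ N : ℕ, ∀ n : ℕ, N ≤ n → (n : ℝ) ^ ((1 / 300 : ℝ) * k) ≤ T n := by
  set r := (k - 22) / 30 with hr
  have hr1 : 30 * r ≤ k - 22 := by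
    rw [hr]
    exact Nat.mul_div_le _ _
  have hr2 : k - 22 < 30 * (r + 1) := by
    rw [hr]
    omega
  obtain ⟨m, rfl⟩ : ∃ m, k = m + 1 := ⟨k - 1, by omega⟩
  obtain ⟨q0, hq0⟩ := diagN r (by omega) m (by omega) A T hA
  -- exponent gap
  set γ : ℝ := 7 * ((1 / 300 : ℝ) * ((m + 1 : ℕ) : ℝ)) with hγ
  set δ : ℝ := (r : ℝ) - γ with hδ
  have hδ0 : 0 < δ := by
    have h1 : ((m + 1 : ℕ) : ℝ) < 30 * (r : ℝ) + 52 := by
      have : m + 1 < 30 * r + 52 := by omega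
      exact_mod_cast this
    have h2 : (600 : ℝ) ≤ ((m + 1 : ℕ) : ℝ) := by exact_mod_cast hk
    rw [hδ, hγ]
    linarith
  have hlim : Filter.Tendsto (fun x : ℝ => x ^ δ) Filter.atTop Filter.atTop :=
    tendsto_rpow_atTop hδ0
  have hlim2 := hlim.comp (tendsto_natCast_atTop_atTop (R := ℝ))
  obtain ⟨M, hM⟩ := Filter.eventually_atTop.1 (hlim2.eventually_ge_atTop ((2 : ℝ) ^ γ))
  refine ⟨(2 * (q0 + M + 129) + 4) ^ 7, fun n hn => ?_⟩
  obtain ⟨q, hq, hqB, hq1, hq2⟩ := exists_prime n (q0 + M + 129) hn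
  have hqpos : (0 : ℝ) < q := by exact_mod_cast hq.pos
  have hn8 : n < q ^ 8 := by
    refine hq2.trans_le ?_
    have h1 : (2 * q) ^ 7 = 128 * q ^ 7 := by ring
    have h2 : q ^ 8 = q * q ^ 7 := by ring
    rw [h1, h2]
    exact Nat.mul_le_mul_right _ (by omega)
  have h1 := hq0 q hq (by omega) n hq1 hn8
  have h3 := hM q (by omega)
  simp only [Function.comp] at h3
  have h4 : (n : ℝ) ≤ (2 * (q : ℝ)) ^ 7 := by exact_mod_cast hq2.le
  have h5 : (n : ℝ) ^ ((1 / 300 : ℝ) * ((m + 1 : ℕ) : ℝ)) ≤ (2 * (q : ℝ)) ^ γ := by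
    have h6 : (2 * (q : ℝ)) ^ γ =
        ((2 * (q : ℝ)) ^ 7) ^ ((1 / 300 : ℝ) * ((m + 1 : ℕ) : ℝ)) := by
      rw [hγ, ← Real.rpow_natCast (2 * (q : ℝ)) 7, ← Real.rpow_mul (by positivity)]
      norm_num
    rw [h6]
    exact Real.rpow_le_rpow (by positivity) h4 (by positivity)
  have h7 : (2 * (q : ℝ)) ^ γ ≤ (q : ℝ) ^ r := by
    have h8 : (q : ℝ) ^ r = (q : ℝ) ^ δ * (q : ℝ) ^ γ := by
      rw [← Real.rpow_add hqpos, hδ, sub_add_cancel, Real.rpow_natCast]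
    rw [Real.mul_rpow (by norm_num) hqpos.le, h8]
    exact mul_le_mul_of_nonneg_right h3 (by positivity)
  have h9 : ((q : ℝ) ^ r) ≤ (T n : ℝ) := by exact_mod_cast h1
  exact h5.trans (h7.trans h9)

/-- Deciding `k`-WL equivalence at a fixed `k` needs at least `n ^ (c * k)` steps for every large
`n`, with one constant `c > 0` for all large `k`; in particular no function `g` with `g k = o(k)`
gives upper bounds `O(n ^ g k)` for all `k`. -/
theorem result :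
    (∃ c : ℝ, 0 < c ∧ ∃ k₀ : ℕ, ∀ k : ℕ, k₀ ≤ k → ∀ (A : TM) (T : ℕ → ℕ), A.DecidesWL k T →
      ∃ N : ℕ, ∀ n : ℕ, N ≤ n → (n : ℝ) ^ (c * (k : ℝ)) ≤ T n) ∧
    ¬ ∃ g : ℕ → ℝ, g =o[Filter.atTop] (fun k : ℕ => (k : ℝ)) ∧
      ∀ k : ℕ, 2 ≤ k → ∃ (A : TM) (T : ℕ → ℕ), A.DecidesWL k T ∧
        (fun n : ℕ => (T n : ℝ)) =O[Filter.atTop] fun n : ℕ => (n : ℝ) ^ g k := by
  refine ⟨⟨1 / 300, by norm_num, 600, fun k hk A T hA => lower k hk A T hA⟩, ?_⟩
  rintro ⟨g, hg, h⟩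
  have h1 := hg.bound (c := 1 / 600) (by norm_num)
  obtain ⟨K, hK⟩ := Filter.eventually_atTop.1 h1
  set k := K + 600 with hk
  obtain ⟨A, T, hA, hT⟩ := h k (by omega)
  obtain ⟨N, hN⟩ := lower k (by omega) A T hA
  have h2 := hK k (by omega)
  have hkpos : (0 : ℝ) < (k : ℝ) := by
    have : 0 < k := by omega
    exact_mod_cast this
  have h3 : g k ≤ (1 / 600 : ℝ) * (k : ℝ) := by
    have h4 := le_trans (le_abs_self _) h2
    rwa [Real.norm_of_nonneg (by positivity : (0 : ℝ) ≤ (k : ℝ))] at h4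
  obtain ⟨C, hC⟩ := hT.bound
  obtain ⟨M, hM⟩ := Filter.eventually_atTop.1 hC
  set ε : ℝ := (1 / 600 : ℝ) * (k : ℝ) with hε
  have hε0 : 0 < ε := by positivity
  have hlim2 := (tendsto_rpow_atTop hε0).comp (tendsto_natCast_atTop_atTop (R := ℝ))
  obtain ⟨L, hL⟩ := Filter.eventually_atTop.1 (hlim2.eventually_gt_atTop C)
  set n := N + M + L + 1 with hn
  have hn1 : (1 : ℝ) ≤ (n : ℝ) := by
    have : 1 ≤ n := by omega
    exact_mod_cast this
  have h5 := hN n (by omega)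
  have h6 := hM n (by omega)
  have h7 := hL n (by omega)
  simp only [Function.comp] at h7
  rw [Real.norm_of_nonneg (by positivity), Real.norm_of_nonneg (by positivity)] at h6
  have h8 : (n : ℝ) ^ g k ≤ (n : ℝ) ^ ε := Real.rpow_le_rpow_of_exponent_le hn1 h3
  have h9 : (n : ℝ) ^ ((1 / 300 : ℝ) * (k : ℝ)) = (n : ℝ) ^ ε * (n : ℝ) ^ ε := by
    rw [← Real.rpow_add (by linarith), hε]
    congr 1
    ring
  have hC0 : 0 ≤ C := by
    by_contra hneg
    have h10 : C * (n : ℝ) ^ g k < 0 := mul_neg_of_neg_of_pos (not_le.mp hneg) (by positivity)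
    have h11 : (0 : ℝ) ≤ (T n : ℝ) := by positivity
    linarith
  have h12 : (n : ℝ) ^ ε * (n : ℝ) ^ ε ≤ C * (n : ℝ) ^ ε := by
    rw [← h9]
    exact h5.trans (h6.trans (mul_le_mul_of_nonneg_left h8 hC0))
  have h13 := le_of_mul_le_mul_right h12 (by positivity : (0 : ℝ) < (n : ℝ) ^ ε)
  linarith

end Vale.Agent.Results.P310.WLTimeLowerAllN
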